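import Mathlib

set_option autoImplicit false

open Finset

namespace Crest.Agent.H7.RI

/-- extension by `false` -/
def ext {n : ℕ} (w : Fin n → Bool) (i : ℕ) : Bool := if h : i < n then w ⟨i, h⟩ else false

theorem ext_fin {n : ℕ} (w : Fin n → Bool) (i : Fin n) : ext w i = w i := by
  simp [ext, i.2]

theorem ext_lt {n : ℕ} (w : Fin n → Bool) {i : ℕ} (h : i < n) : ext w i = w ⟨i, h⟩ := by
  simp [ext, h]

def Phi {n : ℕ} (e : ℕ) (w : Fin n → Bool) (i : Fin n) : Bool :=
  if e ≤ (i : ℕ) then xor (w i) (ext w (i - e)) else w i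

theorem Phi_inj {n e : ℕ} (he : 0 < e) : Function.Injective (Phi (n := n) e) := by
  intro w w' h
  have key : ∀ m : ℕ, ∀ i : Fin n, (i : ℕ) = m → w i = w' i := by
    intro m
    induction m using Nat.strong_induction_on with
    | _ m ih =>
      intro i hi
      have h1 := congrFun h i
      unfold Phi at h1
      by_cases hc : e ≤ (i : ℕ)
      · rw [if_pos hc, if_pos hc] at h1
        have hlt : (i : ℕ) - e < n := lt_of_le_of_lt (Nat.sub_le _ _) i.2
        rw [ext_lt w hlt, ext_lt w' hlt, ih ((i : ℕ) - e) (by omega) ⟨_, hlt⟩ rfl] at h1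
        revert h1
        cases w i <;> cases w' i <;> cases w' ⟨_, hlt⟩ <;> simp
      · rwa [if_neg hc, if_neg hc] at h1
  funext i
  exact key _ i rfl

theorem card_window {n b T : ℕ} (hb : b + T ≤ n) (v : Fin n → Bool) :
    #{i : Fin n | (b ≤ (i : ℕ) ∧ (i : ℕ) < b + T) ∧ v i = true} =
      #{a ∈ range T | ext v (b + a) = true} := by
  symm
  refine Finset.card_bij (fun a ha => ⟨b + a, by
    have := (mem_filter.1 ha).1; rw [mem_range] at this; omega⟩) ?_ ?_ ?_
  · intro a ha
    have h1 := (mem_filter.1 ha).1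
    have h2 := (mem_filter.1 ha).2
    rw [mem_range] at h1
    rw [ext_lt v (by omega)] at h2
    simp only [mem_filter, mem_univ, true_and]
    exact ⟨⟨by omega, by omega⟩, h2⟩
  · intro a ha a' ha' h
    have := congrArg Fin.val h
    simp only at this
    omega
  · intro i hi
    simp only [mem_filter, mem_univ, true_and] at hi
    refine ⟨(i : ℕ) - b, ?_, ?_⟩
    · rw [mem_filter, mem_range]
      refine ⟨by omega, ?_⟩
      have : b + ((i : ℕ) - b) = i := by omega
      rw [this, ext_fin]; exact hi.2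
    · ext; simp only; omega

theorem card_low {n b T : ℕ} (hb : b + T ≤ n) :
    (#{v : Fin n → Bool | 4 * #{a ∈ range T | ext v (b + a) = true} < T} : ℝ) ≤
      2 ^ n * (9 / 10) ^ T := by
  classical
  set wt : Fin n → Bool → ℝ := fun i c =>
    if (b ≤ (i : ℕ) ∧ (i : ℕ) < b + T) ∧ c = true then 1 / 2 else 1 with hwt
  have h1 : ∑ v : Fin n → Bool, ∏ i, wt i (v i) = 2 ^ n * (3 / 4) ^ T := by
    have := Finset.prod_univ_sum (fun _ : Fin n => (univ : Finset Bool)) wt
    rw [Fintype.piFinset_univ] at this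
    rw [← this]
    have h2 : ∀ i : Fin n, ∑ c : Bool, wt i c =
        2 * (if (b ≤ (i : ℕ) ∧ (i : ℕ) < b + T) ∧ (fun _ : Fin n => true) i = true
          then (3 / 4 : ℝ) else 1) := by
      intro i
      by_cases hi : b ≤ (i : ℕ) ∧ (i : ℕ) < b + T
      · simp [hwt, hi]; norm_num
      · simp [hwt, hi]
    rw [Finset.prod_congr rfl fun i _ => h2 i, Finset.prod_mul_distrib, Finset.prod_const,
      Finset.prod_ite, Finset.prod_const, Finset.prod_const_one, mul_one, card_window hb]
    congr 1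
    · simp
    · congr 1
      rw [Finset.filter_true_of_mem, card_range]
      intro a ha
      rw [mem_range] at ha
      rw [ext_lt _ (by omega)]
  have h3 : ∀ v : Fin n → Bool, ∏ i, wt i (v i) =
      (1 / 2 : ℝ) ^ #{a ∈ range T | ext v (b + a) = true} := by
    intro v
    simp only [hwt]
    rw [Finset.prod_ite, Finset.prod_const, Finset.prod_const_one, mul_one, card_window hb]
  have h4 : ∀ v ∈ ({v : Fin n → Bool | 4 * #{a ∈ range T | ext v (b + a) = true} < T} :
      Finset _), (5 / 6 : ℝ) ^ T ≤ ∏ i, wt i (v i) := by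
    intro v hv
    rw [h3]
    have hv' := (mem_filter.1 hv).2
    set c := #{a ∈ range T | ext v (b + a) = true}
    refine le_of_pow_le_pow_left₀ (n := 4) (by norm_num) (by positivity) ?_
    calc ((5 / 6 : ℝ) ^ T) ^ 4 = ((5 / 6 : ℝ) ^ 4) ^ T := by rw [← pow_mul, ← pow_mul, mul_comm]
      _ ≤ (1 / 2 : ℝ) ^ T := by gcongr; norm_num
      _ ≤ (1 / 2 : ℝ) ^ (c * 4) := pow_le_pow_of_le_one (by norm_num) (by norm_num) (by omega)
      _ = _ := by rw [pow_mul]
  have h5 := Finset.card_nsmul_le_sum _ _ _ h4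
  have h6 : ∑ v ∈ ({v : Fin n → Bool | 4 * #{a ∈ range T | ext v (b + a) = true} < T} :
      Finset _), ∏ i, wt i (v i) ≤ ∑ v : Fin n → Bool, ∏ i, wt i (v i) :=
    Finset.sum_le_sum_of_subset_of_nonneg (subset_univ _) fun v _ _ => by rw [h3]; positivity
  rw [h1] at h6
  rw [nsmul_eq_mul] at h5
  have h7 := h5.trans h6
  have hp : (0 : ℝ) < (5 / 6) ^ T := by positivity
  refine le_of_mul_le_mul_right (h7.trans_eq ?_) hp
  rw [mul_assoc, ← mul_pow]; norm_num

theorem card_bad {n a0 e T : ℕ} (he : 0 < e) (hb : a0 + e + T ≤ n) :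
    (#{w : Fin n → Bool | 4 * #{a ∈ range T | ext w (a0 + a) ≠ ext w (a0 + a + e)} < T} : ℝ) ≤
      2 ^ n * (9 / 10) ^ T := by
  classical
  refine le_trans ?_ (card_low hb)
  norm_cast
  refine Finset.card_le_card_of_injOn (Phi e) ?_ (Phi_inj he).injOn
  intro w hw
  simp only [coe_filter, mem_univ, true_and, Set.mem_ofPred_eq] at hw ⊢
  refine lt_of_le_of_lt (le_of_eq ?_) hw
  congr 2
  refine Finset.filter_congr fun a ha => ?_
  rw [mem_range] at ha
  have hlt : a0 + e + a < n := by omega
  rw [ext_lt _ hlt, Phi, if_pos (by simp only; omega)]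
  have e1 : a0 + e + a - e = a0 + a := by omega
  have e2 : a0 + a + e = a0 + e + a := by omega
  simp only [e1, e2]
  rw [ext_lt w hlt]
  cases w ⟨_, hlt⟩ <;> cases ext w (a0 + a) <;> simp

/-- binary sequence with large Hamming distance from all its shifts on all windows -/
theorem bin (P T : ℕ) (h : (P : ℝ) ^ 2 * (9 / 10) ^ T < 1) :
    ∃ w : ℕ → Bool, ∀ a0 < P, ∀ e, 0 < e → e < P →
      T ≤ 4 * #{a ∈ range T | w (a0 + a) ≠ w (a0 + a + e)} := by
  classical
  by_contra hcon
  push Not at hcon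
  set n := 2 * P + T
  set bad : ℕ × ℕ → Finset (Fin n → Bool) := fun c =>
    {w : Fin n → Bool | 4 * #{a ∈ range T | ext w (c.1 + a) ≠ ext w (c.1 + a + c.2)} < T}
  have hsub : (univ : Finset (Fin n → Bool)) ⊆ (range P ×ˢ Ioo 0 P).biUnion bad := by
    intro w _
    obtain ⟨a0, h0, e, he, heP, hw⟩ := hcon (ext w)
    rw [mem_biUnion]
    refine ⟨(a0, e), by simp [h0, he, heP], ?_⟩
    simp only [bad, mem_filter, mem_univ, true_and]
    exact hw
  have h1 : ((univ : Finset (Fin n → Bool)).card : ℝ) ≤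
      ∑ c ∈ range P ×ˢ Ioo 0 P, ((bad c).card : ℝ) := by
    exact_mod_cast (card_le_card hsub).trans card_biUnion_le
  have h2 : ∑ c ∈ range P ×ˢ Ioo 0 P, ((bad c).card : ℝ) ≤
      (range P ×ˢ Ioo 0 P).card • (2 ^ n * (9 / 10 : ℝ) ^ T) := by
    refine Finset.sum_le_card_nsmul _ _ _ fun c hc => ?_
    simp only [mem_product, mem_range, mem_Ioo] at hc
    exact card_bad hc.2.1 (by omega)
  have h3 : ((range P ×ˢ Ioo 0 P).card : ℝ) ≤ (P : ℝ) ^ 2 := by
    rw [card_product, card_range, Nat.card_Ioo]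
    have : P * (P - 0 - 1) ≤ P ^ 2 := by rw [sq]; exact Nat.mul_le_mul_left _ (by omega)
    exact_mod_cast this
  rw [nsmul_eq_mul] at h2
  have h4 : ((univ : Finset (Fin n → Bool)).card : ℝ) = 2 ^ n := by simp
  rw [h4] at h1
  have h5 : (0 : ℝ) < 2 ^ n := by positivity
  have h6 : (0 : ℝ) < (9 / 10) ^ T := by positivity
  have h7 := h1.trans (h2.trans (mul_le_mul_of_nonneg_right h3 (by positivity)))
  nlinarith

/-- offset in the frame -/
def off (c : Bool) : ℕ := if c then 1 else 0

theorem off_le (c : Bool) : off c ≤ 1 := by cases c <;> simp [off]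

theorem off_inj {c c' : Bool} (h : off c = off c') : c = c' := by
  cases c <;> cases c' <;> simp_all [off]

/-- one `true` per frame of length `r` -/
def zc (r : ℕ) (w : ℕ → Bool) (i : ℕ) : Bool := decide (i % r = off (w (i / r)))

theorem zc_iff {r : ℕ} {w : ℕ → Bool} {i : ℕ} :
    zc r w i = true ↔ i = r * (i / r) + off (w (i / r)) := by
  rw [zc, decide_eq_true_iff]
  have := Nat.div_add_mod i r
  omega

theorem zc_frame {r : ℕ} (hr : 3 ≤ r) (w : ℕ → Bool) (a : ℕ) :
    zc r w (r * a + off (w a)) = true := by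
  have h1 := off_le (w a)
  have : (r * a + off (w a)) / r = a := by
    rw [Nat.add_comm, Nat.add_mul_div_left _ _ (by omega), Nat.div_eq_of_lt (by omega), zero_add]
  rw [zc_iff, this]

theorem zc_upper {r : ℕ} (hr : 3 ≤ r) (w : ℕ → Bool) (i T : ℕ) :
    #{k ∈ range (r * T) | zc r w (i + k) = true} ≤ T + 1 := by
  have : (Icc (i / r) (i / r + T)).card = T + 1 := by rw [Nat.card_Icc]; omega
  rw [← this]
  refine Finset.card_le_card_of_injOn (fun k => (i + k) / r) ?_ ?_
  · intro k hk
    simp only [coe_filter, mem_range, Set.mem_ofPred_eq] at hk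
    simp only [coe_Icc, Set.mem_Icc]
    refine ⟨Nat.div_le_div_right (by omega), ?_⟩
    rw [← Nat.add_mul_div_left _ _ (by omega : 0 < r)]
    exact Nat.div_le_div_right (by omega)
  · intro k hk k' hk' h
    simp only [coe_filter, mem_range, Set.mem_ofPred_eq, zc_iff] at hk hk'
    simp only at h
    have h1 := hk.2
    have h2 := hk'.2
    rw [h] at h1
    omega

/-- frames fully inside the window inject -/
theorem frames_le {r : ℕ} (hr : 3 ≤ r) (w : ℕ → Bool) (i T : ℕ) (Q : ℕ → Prop) [DecidablePred Q]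
    (R : ℕ → Prop) [DecidablePred R]
    (h : ∀ b k, b < T - 1 → Q b →
      i + k = r * (i / r + 1 + b) + off (w (i / r + 1 + b)) → R k) :
    #{b ∈ range (T - 1) | Q b} ≤ #{k ∈ range (r * T) | R k} := by
  have hi := Nat.div_add_mod i r
  have hi2 : i % r < r := Nat.mod_lt _ (by omega)
  have hex : ∀ b, r * (i / r + 1 + b) = r * (i / r) + r + r * b := fun b => by ring
  refine Finset.card_le_card_of_injOn
    (fun b => r * (i / r + 1 + b) + off (w (i / r + 1 + b)) - i) ?_ ?_
  · intro b hb
    simp only [coe_filter, mem_range, Set.mem_ofPred_eq] at hb ⊢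
    have h1 := off_le (w (i / r + 1 + b))
    have h2 := hex b
    have h3 : r * (b + 2) ≤ r * T := Nat.mul_le_mul_left _ (by omega)
    have h4 : r * (b + 2) = r * b + 2 * r := by ring
    exact ⟨by omega, h b _ hb.1 hb.2 (by omega)⟩
  · intro b _ b' _ hbb
    simp only at hbb
    have h1 := off_le (w (i / r + 1 + b))
    have h1' := off_le (w (i / r + 1 + b'))
    have h2 := hex b
    have h2' := hex b'
    by_contra hne
    rcases lt_or_gt_of_ne hne with hl | hl
    · have h3 : r * (b + 1) ≤ r * b' := Nat.mul_le_mul_left _ hl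
      rw [mul_add] at h3; omega
    · have h3 : r * (b' + 1) ≤ r * b := Nat.mul_le_mul_left _ hl
      rw [mul_add] at h3; omega

theorem zc_lower {r : ℕ} (hr : 3 ≤ r) (w : ℕ → Bool) (i T : ℕ) :
    T - 1 ≤ #{k ∈ range (r * T) | zc r w (i + k) = true} := by
  have := frames_le hr w i T (fun _ => True) (fun k => zc r w (i + k) = true)
    (fun b k _ _ h => by rw [h]; exact zc_frame hr w _)
  simpa using this

theorem count_val (w : ℕ → Bool) (a0 T : ℕ) (c : Bool) :
    #{a ∈ range T | w (a0 + a) ≠ w (a0 + a + 1)} ≤ 2 * #{a ∈ range (T + 1) | w (a0 + a) = c} := by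
  have h1 : {a ∈ range T | w (a0 + a) ≠ w (a0 + a + 1)} ⊆
      {a ∈ range T | w (a0 + a) = c} ∪ {a ∈ range T | w (a0 + a + 1) = c} := by
    intro a ha
    simp only [mem_union, mem_filter] at ha ⊢
    obtain ⟨h, h'⟩ := ha
    revert h'
    cases w (a0 + a) <;> cases w (a0 + a + 1) <;> cases c <;> simp [h]
  have h2 : #{a ∈ range T | w (a0 + a) = c} ≤ #{a ∈ range (T + 1) | w (a0 + a) = c} :=
    card_le_card (filter_subset_filter _ (range_subset_range.2 (by omega)))
  have h3 : #{a ∈ range T | w (a0 + a + 1) = c} ≤ #{a ∈ range (T + 1) | w (a0 + a) = c} := by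
    refine Finset.card_le_card_of_injOn (fun a => a + 1) ?_ fun a _ a' _ h => by simpa using h
    intro a ha
    simp only [coe_filter, mem_range, Set.mem_ofPred_eq] at ha ⊢
    exact ⟨by omega, by rw [← add_assoc]; exact ha.2⟩
  have := (card_le_card h1).trans (card_union_le _ _)
  omega

theorem zc_sep {r P T : ℕ} (hr : 3 ≤ r) (hT : 10 ≤ T) (w : ℕ → Bool)
    (hw1 : ∀ a0 < P + 2, ∀ e, 0 < e → e < P + 2 →
      T - 2 ≤ 4 * #{a ∈ range (T - 2) | w (a0 + a) ≠ w (a0 + a + e)})
    {i i' : ℕ} (hi : i ≤ P) (hi' : i' ≤ P) (hne : i ≠ i') :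
    T ≤ 10 * #{k ∈ range (r * T) | zc r w (i + k) = true ∧ zc r w (i' + k) = false} := by
  have e1 := Nat.div_add_mod i r
  have e2 : i % r < r := Nat.mod_lt _ (by omega)
  have e1' := Nat.div_add_mod i' r
  have e2' : i' % r < r := Nat.mod_lt _ (by omega)
  have hA : i / r ≤ P := (Nat.div_le_self _ _).trans hi
  have hA' : i' / r ≤ P := (Nat.div_le_self _ _).trans hi'
  -- the basic arithmetic of a coincidence
  have key : ∀ a k, i + k = r * a + off (w a) → zc r w (i' + k) = true →
      ∃ a' : ℕ, ∃ D : ℤ, (D = -1 ∨ D = 0 ∨ D = 1) ∧ (a' : ℤ) - (i' / r : ℕ) - a + (i / r : ℕ) = D ∧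
        (r : ℤ) * D = ((i' % r : ℕ) : ℤ) - (i % r : ℕ) + off (w a) - off (w a') := by
    intro a k h1 h2
    rw [zc_iff] at h2
    set a' := (i' + k) / r
    have h3 := off_le (w a)
    have h4 := off_le (w a')
    have h5 : (r : ℤ) * ((a' : ℤ) - (i' / r : ℕ) - a + (i / r : ℕ)) =
        ((i' % r : ℕ) : ℤ) - (i % r : ℕ) + off (w a) - off (w a') := by
      zify at h1 h2 e1 e1'
      push_cast
      linarith
    refine ⟨a', _, ?_, rfl, h5⟩
    generalize (a' : ℤ) - (i' / r : ℕ) - a + (i / r : ℕ) = D at h5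
    have hlo : -(r : ℤ) ≤ r * D := by omega
    have hhi : r * D ≤ (r : ℤ) := by omega
    have hr' : (3 : ℤ) ≤ r := by exact_mod_cast hr
    have : -1 ≤ D := by by_contra hh; nlinarith
    have : D ≤ 1 := by by_contra hh; nlinarith
    omega
  by_cases hx : i % r = i' % r
  · have hAA : i / r ≠ i' / r := fun h => hne (by rw [h, hx] at e1; omega)
    have h1 := frames_le hr w i T (fun b => w (i / r + 1 + b) ≠ w (i' / r + 1 + b))
      (fun k => zc r w (i + k) = true ∧ zc r w (i' + k) = false) (fun b k _ hb h => by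
        refine ⟨by rw [h]; exact zc_frame hr w _, ?_⟩
        by_contra hz
        rw [Bool.not_eq_false] at hz
        obtain ⟨a', D, hD, h2, h3⟩ := key _ k h hz
        have h4 := off_le (w (i / r + 1 + b))
        have h5 := off_le (w a')
        have hD0 : D = 0 := by
          rcases hD with rfl | rfl | rfl <;> omega
        subst hD0
        have h6 : a' = i' / r + 1 + b := by omega
        rw [h6] at h3
        exact hb (off_inj (by omega)))
    have h2 : T - 2 ≤ 4 * #{b ∈ range (T - 1) | w (i / r + 1 + b) ≠ w (i' / r + 1 + b)} := by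
      have hmono : #{b ∈ range (T - 2) | w (i / r + 1 + b) ≠ w (i' / r + 1 + b)} ≤
          #{b ∈ range (T - 1) | w (i / r + 1 + b) ≠ w (i' / r + 1 + b)} :=
        card_le_card (filter_subset_filter _ (range_subset_range.2 (by omega)))
      refine le_trans ?_ (Nat.mul_le_mul_left 4 hmono)
      rcases lt_or_gt_of_ne hAA with hl | hl
      · refine (hw1 (i / r + 1) (by omega) (i' / r - i / r) (by omega)
          ((Nat.sub_le _ _).trans_lt (by omega))).trans_eq ?_
        congr 2
        refine filter_congr fun b _ => ?_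
        rw [show i / r + 1 + b + (i' / r - i / r) = i' / r + 1 + b by omega]
      · refine (hw1 (i' / r + 1) (by omega) (i / r - i' / r) (by omega)
          ((Nat.sub_le _ _).trans_lt (by omega))).trans_eq ?_
        congr 2
        refine filter_congr fun b _ => ?_
        rw [show i' / r + 1 + b + (i / r - i' / r) = i / r + 1 + b by omega]
        exact ne_comm
    omega
  · obtain ⟨c, hc⟩ : ∃ c : Bool, ∀ o' : ℕ, o' ≤ 1 → ∀ D : ℤ, (D = -1 ∨ D = 0 ∨ D = 1) →
        (r : ℤ) * D ≠ ((i' % r : ℕ) : ℤ) - (i % r : ℕ) + off c - o' := by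
      by_cases hs : i' % r = i % r + 1 ∨ i' % r + r = i % r + 1
      · refine ⟨true, fun o' ho D hD => ?_⟩
        simp only [off, if_true]
        rcases hD with rfl | rfl | rfl <;> omega
      · refine ⟨false, fun o' ho D hD => ?_⟩
        simp only [off, Bool.false_eq_true, if_false]
        rcases hD with rfl | rfl | rfl <;> omega
    have h1 := frames_le hr w i T (fun b => w (i / r + 1 + b) = c)
      (fun k => zc r w (i + k) = true ∧ zc r w (i' + k) = false) (fun b k _ hb h => by
        refine ⟨by rw [h]; exact zc_frame hr w _, ?_⟩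
        by_contra hz
        rw [Bool.not_eq_false] at hz
        obtain ⟨a', D, hD, h2, h3⟩ := key _ k h hz
        rw [hb] at h3
        exact hc _ (off_le _) D hD h3)
    have h2 := count_val w (i / r + 1) (T - 2) c
    have h3 := hw1 (i / r + 1) (by omega) 1 (by omega) (by omega)
    rw [show T - 2 + 1 = T - 1 by omega] at h2
    omega

/-- **Code lemma**: a sparse code of exact density `1/r` whose distinct shifts are separated on
every window of length `r * T`. -/
theorem code {r P T : ℕ} (hr : 3 ≤ r) (hT : 10 ≤ T)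
    (h : ((P : ℝ) + 2) ^ 2 * (9 / 10) ^ (T - 2) < 1) :
    ∃ z : ℕ → Bool,
      (∀ i, T - 1 ≤ #{k ∈ range (r * T) | z (i + k) = true}) ∧
      (∀ i, #{k ∈ range (r * T) | z (i + k) = true} ≤ T + 1) ∧
      ∀ i i', i ≤ P → i' ≤ P → i ≠ i' →
        T ≤ 10 * #{k ∈ range (r * T) | z (i + k) = true ∧ z (i' + k) = false} := by
  obtain ⟨w, hw⟩ := bin (P + 2) (T - 2) (by push_cast; exact h)
  exact ⟨zc r w, fun i => zc_lower hr w i T, fun i => zc_upper hr w i T,
    fun i i' hi hi' hne => zc_sep hr hT w hw hi hi' hne⟩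

end Crest.Agent.H7.RI
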