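import Mathlib

set_option autoImplicit false

open Finset

namespace Crest.Agent.H7.RI

variable {X : Type*} [AddCommGroup X]

/-- cut points: first visit to `I` after a height divisible by `L` (within `R` steps) -/
def Cut (t : X) (h : X → ℕ) (I : Set X) (L R : ℕ) : Set X :=
  {x | x ∈ I ∧ h x % L < R ∧ ∀ i, 1 ≤ i → i ≤ h x % L → x - i • t ∉ I}

theorem Cut_sub (t : X) (h : X → ℕ) (I : Set X) (L R : ℕ) : Cut t h I L R ⊆ I := fun _ hx => hx.1

theorem measurable_Cut [MeasurableSpace X] [MeasurableSub X] (t : X) {h : X → ℕ}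
    (hh : Measurable h) {I : Set X} (hI : MeasurableSet I) (L R : ℕ) :
    MeasurableSet (Cut t h I L R) := by
  have : Cut t h I L R = I ∩ (h ⁻¹' {n | n % L < R}) ∩
      ⋂ i : ℕ, ((h ⁻¹' {n | 1 ≤ i ∧ i ≤ n % L})ᶜ ∪ ((fun x => x - i • t) ⁻¹' I)ᶜ) := by
    ext x
    simp only [Cut, Set.mem_ofPred_eq, Set.mem_inter_iff, Set.mem_preimage, Set.mem_iInter,
      Set.mem_union, Set.mem_compl_iff]
    constructor
    · rintro ⟨h1, h2, h3⟩
      refine ⟨⟨h1, h2⟩, fun i => ?_⟩
      by_cases hc : 1 ≤ i ∧ i ≤ h x % L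
      · exact Or.inr (h3 i hc.1 hc.2)
      · exact Or.inl hc
    · rintro ⟨⟨h1, h2⟩, h3⟩
      exact ⟨h1, h2, fun i a b => (h3 i).resolve_left (fun hn => hn ⟨a, b⟩)⟩
  rw [this]
  refine (hI.inter (hh (MeasurableSet.of_discrete))).inter (MeasurableSet.iInter fun i => ?_)
  exact (hh MeasurableSet.of_discrete).compl.union ((measurable_sub_const _) hI).compl

open Classical in
/-- a window of length `L` starting at height `≥ R mod L` contains exactly one cut -/
theorem one_cut {t : X} {h : X → ℕ} {I : Set X} {L R : ℕ} (hL : 0 < L)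
    (hit : ∀ y : X, ∃ i < R, y + i • t ∈ I) (x : X)
    (hx : ∀ i ≤ L, h (x + i • t) = h x + i) (hR : R ≤ h x % L) :
    ∃ i0 < L, h (x + i0 • t) / L = h x / L + 1 ∧
      ∀ i < L, x + i • t ∈ Cut t h I L R ↔ i = i0 := by
  set u := h x % L with hu
  have huL : u < L := Nat.mod_lt _ hL
  have hdm := Nat.div_add_mod (h x) L
  set y := x + (L - u) • t with hy
  have hex : ∃ i, y + i • t ∈ I := let ⟨i, _, hi⟩ := hit y; ⟨i, hi⟩
  set ι := Nat.find hex with hι
  have hιR : ι < R := by
    obtain ⟨i, hi, hi'⟩ := hit y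
    exact (Nat.find_min' hex hi').trans_lt hi
  have hmul : L * (h x / L + 1) = L * (h x / L) + L := by ring
  have hpos : ∀ j, j < u → h (x + (L - u + j) • t) % L = j ∧
      h (x + (L - u + j) • t) / L = h x / L + 1 := by
    intro j hj
    rw [hx _ (by omega), show h x + (L - u + j) = j + L * (h x / L + 1) by omega]
    constructor
    · rw [Nat.add_mul_mod_self_left, Nat.mod_eq_of_lt (by omega)]
    · rw [Nat.add_mul_div_left _ _ hL, Nat.div_eq_of_lt (by omega), zero_add]
  have hyj : ∀ j : ℕ, x + (L - u + j) • t = y + j • t := fun j => by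
    rw [hy, add_nsmul, add_assoc]
  refine ⟨L - u + ι, by omega, (hpos ι (by omega)).2, fun i hi => ⟨fun hc => ?_, fun hc => ?_⟩⟩
  · obtain ⟨h1, h2, h3⟩ := hc
    by_cases hlt : i < L - u
    · exfalso
      rw [hx _ hi.le, show h x + i = u + i + L * (h x / L) by omega, Nat.add_mul_mod_self_left,
        Nat.mod_eq_of_lt (by omega)] at h2
      omega
    · obtain ⟨j, rfl⟩ : ∃ j, i = L - u + j := ⟨i - (L - u), by omega⟩
      rw [(hpos j (by omega)).1] at h3
      rw [hyj] at h1 h3
      have h4 : ι ≤ j := Nat.find_min' hex h1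
      by_contra hne
      refine h3 (j - ι) (by omega) (by omega) ?_
      have : y + j • t - (j - ι) • t = y + ι • t := by
        obtain ⟨c, rfl⟩ := Nat.exists_eq_add_of_le h4
        rw [Nat.add_sub_cancel_left, add_nsmul]; abel
      rw [this]; exact Nat.find_spec hex
  · subst hc
    refine ⟨by rw [hyj]; exact Nat.find_spec hex, by rw [(hpos ι (by omega)).1]; exact hιR, ?_⟩
    intro i' h1 h2
    rw [(hpos ι (by omega)).1] at h2
    have : x + (L - u + ι) • t - i' • t = y + (ι - i') • t := by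
      obtain ⟨c, hc⟩ := Nat.exists_eq_add_of_le h2
      rw [hyj, hc, Nat.add_sub_cancel_left, add_nsmul]; abel
    rw [this]
    exact Nat.find_min hex (by omega)

open Classical in
/-- Birkhoff sums of a cost `c (block index)` paid at the cuts -/
theorem window_sum {t : X} {h : X → ℕ} {I : Set X} {L R : ℕ} (hL : 0 < L)
    (hit : ∀ y : X, ∃ i < R, y + i • t ∈ I) (c : ℕ → ℝ) (k : ℕ) (x : X)
    (hx : ∀ i ≤ k * L, h (x + i • t) = h x + i) (hR : R ≤ h x % L) :
    ∑ i ∈ range (k * L), (Cut t h I L R).indicator (fun y => c (h y / L)) (x + i • t) =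
      ∑ j ∈ range k, c (h x / L + j + 1) := by
  induction k with
  | zero => simp
  | succ k ih =>
    have hk : k * L ≤ (k + 1) * L := Nat.mul_le_mul_right _ (by omega)
    rw [Nat.succ_mul, Finset.sum_range_add, Finset.sum_range_succ,
      ih fun i hi => hx i (hi.trans hk)]
    congr 1
    have hy : h (x + (k * L) • t) = h x + k * L := hx _ hk
    obtain ⟨i0, hi0, hb, hc⟩ := one_cut (h := h) hL hit (x + (k * L) • t) (fun i hi => by
      rw [add_assoc, ← add_nsmul, hx _ (by rw [Nat.succ_mul]; omega), hy, add_assoc])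
      (by rw [hy, Nat.add_mul_mod_self_right]; exact hR)
    rw [Finset.sum_eq_single i0]
    · rw [add_nsmul, ← add_assoc, Set.indicator_of_mem ((hc i0 hi0).2 rfl), hb, hy,
        Nat.add_mul_div_right _ _ hL]
    · intro i hi hne
      rw [add_nsmul, ← add_assoc, Set.indicator_of_notMem]
      exact fun hm => hne ((hc i (mem_range.1 hi)).1 hm)
    · intro hn; exact absurd (mem_range.2 hi0) hn

/-- value of a bit -/
def bit (b : Bool) : ℝ := if b then 1 else 0

/-- cost of the cut starting block `b` -/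
def cost (G : ℝ) (z : ℕ → Bool) (b : ℕ) : ℝ := G * (2 + bit (z b) - bit (z (b - 1)))

theorem cost_ge {G : ℝ} (hG : 0 ≤ G) (z : ℕ → Bool) (b : ℕ) : G ≤ cost G z b := by
  unfold cost bit; split_ifs <;> nlinarith

theorem cost_le {G : ℝ} (hG : 0 ≤ G) (z : ℕ → Bool) (b : ℕ) : cost G z b ≤ 3 * G := by
  unfold cost bit; split_ifs <;> nlinarith

theorem sum_cost (G : ℝ) (z : ℕ → Bool) (b k : ℕ) :
    ∑ j ∈ range k, cost G z (b + j + 1) = G * (2 * k + bit (z (b + k)) - bit (z b)) := by
  induction k with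
  | zero => simp
  | succ k ih =>
    rw [sum_range_succ, ih, cost, Nat.add_sub_cancel, ← add_assoc]; push_cast; ring

/-- **window identity** -/
theorem window_cost {t : X} {h : X → ℕ} {I : Set X} {L R : ℕ} (hL : 0 < L)
    (hit : ∀ y : X, ∃ i < R, y + i • t ∈ I) (G : ℝ) (z : ℕ → Bool) (k : ℕ) (x : X)
    (hx : ∀ i ≤ k * L, h (x + i • t) = h x + i) (hR : R ≤ h x % L) :
    ∑ i ∈ range (k * L), (Cut t h I L R).indicator (fun y => cost G z (h y / L)) (x + i • t) =
      G * (2 * k + bit (z (h x / L + k)) - bit (z (h x / L))) := by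
  rw [window_sum hL hit (cost G z) k x hx hR, sum_cost]

end Crest.Agent.H7.RI
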