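import Crest.Agent.H7.RI.Cut
import Crest.Agent.H2.RP.Mult

set_option autoImplicit false

open Finset MeasureTheory
open Crest.Agent.H2.RP

namespace Crest.Agent.H7.RI

/-- points whose height does not increase by one along the next `n` steps -/
def Bad (t : Cir) (h : Cir → ℕ) (n : ℕ) : Set Cir := {x | ¬ ∀ i ≤ n, h (x + i • t) = h x + i}

/-- one step defects -/
def Def (t : Cir) (h : Cir → ℕ) : Set Cir := {x | h (x + t) ≠ h x + 1}

theorem real_shift {A : Set Cir} (hA : MeasurableSet A) (s : Cir) :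
    mu.real ((fun x => x + s) ⁻¹' A) = mu.real A :=
  (measurePreserving_add_right mu s).measureReal_preimage hA.nullMeasurableSet

theorem measurable_Def (t : Cir) {h : Cir → ℕ} (hh : Measurable h) : MeasurableSet (Def t h) :=
  (measurableSet_eq_fun (hh.comp (measurable_add_const t)) (hh.add_const 1)).compl

theorem measurable_Bad (t : Cir) {h : Cir → ℕ} (hh : Measurable h) (n : ℕ) :
    MeasurableSet (Bad t h n) := by
  have : Bad t h n = (⋂ i : ℕ, {x | i ≤ n → h (x + i • t) = h x + i})ᶜ := by
    ext x; simp [Bad]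
  rw [this]
  refine (MeasurableSet.iInter fun i => ?_).compl
  by_cases hi : i ≤ n
  · simp only [hi, forall_true_left]
    exact measurableSet_eq_fun (hh.comp (measurable_add_const _)) (hh.add_const i)
  · simp [hi]

theorem Bad_mono (t : Cir) (h : Cir → ℕ) {m n : ℕ} (hmn : m ≤ n) : Bad t h m ⊆ Bad t h n :=
  fun _ hx hn => hx fun i hi => hn i (hi.trans hmn)

theorem Bad_sub (t : Cir) (h : Cir → ℕ) (n : ℕ) :
    Bad t h n ⊆ ⋃ i ∈ range n, (fun x => x + i • t) ⁻¹' Def t h := by
  intro x hx
  by_contra hc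
  simp only [Set.mem_iUnion, not_exists, Set.mem_preimage, Def, Set.mem_ofPred_eq, not_not,
    mem_range] at hc
  refine hx fun i hi => ?_
  induction i with
  | zero => simp
  | succ i ih => rw [succ_nsmul, ← add_assoc, hc i (by omega), ih (by omega), add_assoc]

/-- orbit segments meeting a set -/
theorem real_hit_le {A : Set Cir} (hA : MeasurableSet A) (t : Cir) (n : ℕ) :
    mu.real (⋃ i ∈ range n, (fun x => x + i • t) ⁻¹' A) ≤ n * mu.real A := by
  refine (measureReal_biUnion_finset_le _ _).trans_eq ?_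
  rw [Finset.sum_congr rfl fun i _ => real_shift hA _, sum_const, card_range, nsmul_eq_mul]

theorem real_Bad_le (t : Cir) {h : Cir → ℕ} (hh : Measurable h) (n : ℕ) :
    mu.real (Bad t h n) ≤ n * mu.real (Def t h) :=
  (measureReal_mono (Bad_sub t h n) (measure_ne_top _ _)).trans (real_hit_le (measurable_Def t hh) t n)

theorem measurable_mod {h : Cir → ℕ} (hh : Measurable h) (P : ℕ → Prop) :
    MeasurableSet {x | P (h x)} := hh (MeasurableSet.of_discrete (s := {n | P n}))

/-- counting lemma: an average along orbit points bounds the measure from above -/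
theorem real_le_of_count {A B : Set Cir} (hA : MeasurableSet A) (hB : MeasurableSet B)
    (s : ℕ → Cir) (K : ℕ) (c : ℝ) (hc : 0 ≤ c)
    (h : ∀ x, x ∉ B → ∑ k ∈ range K, A.indicator (fun _ => (1 : ℝ)) (x + s k) ≤ c) :
    K * mu.real A ≤ c + K * mu.real B := by
  have hi : ∀ k, Integrable (fun x => A.indicator (fun _ => (1 : ℝ)) (x + s k)) mu := fun k =>
    Integrable.comp_add_right (f := A.indicator (fun _ => (1 : ℝ)))
      ((integrable_const 1).indicator hA) (s k)
  have h1 : ∫ x, ∑ k ∈ range K, A.indicator (fun _ => (1 : ℝ)) (x + s k) ∂mu = K * mu.real A := by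
    rw [integral_finsetSum _ fun k _ => hi k]
    rw [Finset.sum_congr rfl fun k _ => integral_add_right_eq_self _ (s k), sum_const, card_range,
      nsmul_eq_mul, integral_indicator hA]
    simp
  have h2 : ∫ x, (c + B.indicator (fun _ => (K : ℝ)) x) ∂mu = c + K * mu.real B := by
    rw [integral_add (integrable_const _) ((integrable_const _).indicator hB), integral_indicator hB]
    simp [mul_comm]
  rw [← h1, ← h2]
  refine integral_mono (integrable_finsetSum _ fun k _ => hi k)
    ((integrable_const _).add ((integrable_const _).indicator hB)) fun x => ?_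
  by_cases hx : x ∈ B
  · simp only [Set.indicator_of_mem hx]
    have : ∑ k ∈ range K, A.indicator (fun _ => (1 : ℝ)) (x + s k) ≤ ∑ k ∈ range K, (1 : ℝ) :=
      sum_le_sum fun k _ => Set.indicator_le_self' (fun _ _ => zero_le_one) _
    simp only [sum_const, card_range, nsmul_eq_mul, mul_one] at this
    linarith
  · simp only [Set.indicator_of_notMem hx, add_zero]
    exact h x hx

/-- counting lemma, lower bound -/
theorem real_ge_of_count {A B : Set Cir} (hA : MeasurableSet A) (hB : MeasurableSet B)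
    (s : ℕ → Cir) (K : ℕ) (c : ℝ) (hc : c ≤ K)
    (h : ∀ x, x ∉ B → c ≤ ∑ k ∈ range K, A.indicator (fun _ => (1 : ℝ)) (x + s k)) :
    c - K * mu.real B ≤ K * mu.real A := by
  have h1 := real_le_of_count hA.compl hB s K (K - c) (by linarith) fun x hx => by
    have h2 := h x hx
    have h3 : ∑ k ∈ range K, Aᶜ.indicator (fun _ => (1 : ℝ)) (x + s k) +
        ∑ k ∈ range K, A.indicator (fun _ => (1 : ℝ)) (x + s k) = K := by
      rw [← sum_add_distrib, Finset.sum_congr rfl (g := fun _ => (1 : ℝ))]
      · simp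
      · intro k _
        by_cases hk : x + s k ∈ A <;> simp [hk]
    linarith
  rw [measureReal_compl hA, probReal_univ] at h1
  linarith

theorem card_mod_lt (L R : ℕ) (a : ℕ) :
    #{i ∈ range L | (a + i) % L < R} ≤ R := by
  rw [← card_range R]
  refine card_le_card_of_injOn (fun i => (a + i) % L) ?_ ?_
  · intro i hi
    simp only [coe_filter, mem_range, Set.mem_ofPred_eq, card_range] at hi
    simp only [coe_range, Set.mem_Iio]
    exact hi.2
  · intro i hi j hj hij
    simp only [coe_filter, mem_range, Set.mem_ofPred_eq] at hi hj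
    have h1 : i % L = j % L := Nat.ModEq.add_left_cancel' a hij
    rwa [Nat.mod_eq_of_lt hi.1, Nat.mod_eq_of_lt hj.1] at h1

theorem sum_ind_eq_card {A : Set Cir} (s : ℕ → Cir) (K : ℕ) (Q : ℕ → Prop) [DecidablePred Q]
    (h : ∀ k < K, s k ∈ A ↔ Q k) :
    ∑ k ∈ range K, A.indicator (fun _ => (1 : ℝ)) (s k) = #{k ∈ range K | Q k} := by
  rw [card_filter, Nat.cast_sum]
  refine sum_congr rfl fun k hk => ?_
  by_cases hq : Q k
  · simp [hq, (h k (mem_range.1 hk)).2 hq]
  · have : s k ∉ A := fun hm => hq ((h k (mem_range.1 hk)).1 hm)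
    simp [hq, this]

/-- the zone `h % L < R` is small -/
theorem real_mod_lt_le (t : Cir) {h : Cir → ℕ} (hh : Measurable h) {L : ℕ} (hL : 0 < L) (R : ℕ) :
    mu.real {x | h x % L < R} ≤ R / L + L * mu.real (Def t h) := by
  have h1 := real_le_of_count (measurable_mod hh fun n => n % L < R) (measurable_Bad t hh L)
    (fun i => i • t) L R (Nat.cast_nonneg _) fun x hx => by
      simp only [Bad, Set.mem_ofPred_eq, not_not] at hx
      rw [sum_ind_eq_card (fun i => x + i • t) L (fun i => (h x + i) % L < R) fun k hk => by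
        simp only [Set.mem_ofPred_eq]; rw [hx k hk.le]]
      exact_mod_cast card_mod_lt L R (h x)
  have hL' : (0 : ℝ) < L := by exact_mod_cast hL
  have h2 := real_Bad_le t hh L
  have h3 : (L : ℝ) * (R / L) = R := by field_simp
  refine le_of_mul_le_mul_left ?_ hL'
  nlinarith

theorem real_Cut_le (t : Cir) {h : Cir → ℕ} (hh : Measurable h) (I : Set Cir) {L : ℕ} (hL : 0 < L)
    (R : ℕ) : mu.real (Cut t h I L R) ≤ R / L + L * mu.real (Def t h) :=
  (measureReal_mono (fun _ hx => hx.2.1) (measure_ne_top _ _)).trans (real_mod_lt_le t hh hL R)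

/-- the marked set of a level -/
def Mk (h : Cir → ℕ) (L : ℕ) (z : ℕ → Bool) : Set Cir := {x | z (h x / L) = true}

theorem measurable_Mk {h : Cir → ℕ} (hh : Measurable h) (L : ℕ) (z : ℕ → Bool) :
    MeasurableSet (Mk h L z) := measurable_mod hh fun n => z (n / L) = true

theorem mem_Mk_window {t : Cir} {h : Cir → ℕ} {L : ℕ} (hL : 0 < L) (z : ℕ → Bool) {K k : ℕ}
    (hk : k ≤ K) {x : Cir} (hx : x ∉ Bad t h (K * L)) :
    x + (k * L) • t ∈ Mk h L z ↔ z (h x / L + k) = true := by
  simp only [Bad, Set.mem_ofPred_eq, not_not] at hx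
  simp only [Mk, Set.mem_ofPred_eq]
  rw [hx _ (Nat.mul_le_mul_right _ hk), Nat.add_mul_div_right _ _ hL]

theorem sum_Mk_window {t : Cir} {h : Cir → ℕ} {L : ℕ} (hL : 0 < L) (z : ℕ → Bool) {K : ℕ}
    {x : Cir} (hx : x ∉ Bad t h (K * L)) :
    ∑ k ∈ range K, (Mk h L z).indicator (fun _ => (1 : ℝ)) (x + (k * L) • t) =
      #{k ∈ range K | z (h x / L + k) = true} :=
  sum_ind_eq_card (fun k => x + (k * L) • t) K _ fun _ hk => mem_Mk_window hL z hk.le hx

theorem real_Mk_le (t : Cir) {h : Cir → ℕ} (hh : Measurable h) {L : ℕ} (hL : 0 < L) (z : ℕ → Bool)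
    {K c : ℕ} (hz : ∀ i, #{k ∈ range K | z (i + k) = true} ≤ c) :
    K * mu.real (Mk h L z) ≤ c + K * mu.real (Bad t h (K * L)) :=
  real_le_of_count (measurable_Mk hh L z) (measurable_Bad t hh _) (fun k => (k * L) • t) K c
    (Nat.cast_nonneg _) fun x hx => by rw [sum_Mk_window hL z hx]; exact_mod_cast hz _

theorem real_Mk_ge (t : Cir) {h : Cir → ℕ} (hh : Measurable h) {L : ℕ} (hL : 0 < L) (z : ℕ → Bool)
    {K c : ℕ} (hz : ∀ i, c ≤ #{k ∈ range K | z (i + k) = true}) :
    c - K * mu.real (Bad t h (K * L)) ≤ K * mu.real (Mk h L z) :=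
  real_ge_of_count (measurable_Mk hh L z) (measurable_Bad t hh _) (fun k => (k * L) • t) K c
    (by exact_mod_cast (hz 0).trans ((card_filter_le _ _).trans_eq (card_range K)))
    fun x hx => by rw [sum_Mk_window hL z hx]; exact_mod_cast hz _

end Crest.Agent.H7.RI
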