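import Crest.Agent.H7.RI.Step2

set_option autoImplicit false

namespace Crest.Agent.H7.RI

open Finset MeasureTheory Crest.Agent.H9.RI Crest.Agent.H2.RP
open scoped Classical

set_option maxHeartbeats 1600000 in
theorem t_step : T_step := by
  intro hcode θ r Kc A δ L hi E W N hθ hK hA hδ hE hδE hW hEW hN hNL hP hit
  have hE' : (4 : ℝ) ≤ E := by exact_mod_cast hE
  have hW' : (16 : ℝ) ≤ W := by exact_mod_cast hW
  have hN' : (1 : ℝ) ≤ N := by exact_mod_cast hN
  have hδ1 : δ ≤ 1 / 16 := by nlinarith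
  have hL0 : (0 : ℝ) ≤ L := Nat.cast_nonneg _
  have hL' : 1600 * (N : ℝ) ≤ L := by nlinarith
  have hLN : N ≤ L := by exact_mod_cast (by linarith : (N : ℝ) ≤ L)
  have hL : 0 < L := by omega
  have hLp : (0 : ℝ) < L := by exact_mod_cast hL
  have hL1 : (1 : ℝ) ≤ L := by exact_mod_cast hL
  set K := E * W with hKd
  have hK64 : (64 : ℝ) ≤ K := by rw [hKd]; push_cast; nlinarith
  have hhi0 : (0 : ℝ) ≤ hi := Nat.cast_nonneg _
  obtain ⟨P, hP2⟩ : ∃ P, 2 ^ (W / 100) = P + 2 := by
    have a1 : (2 : ℝ) ≤ 2 ^ (W / 100) := by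
      have : (0 : ℝ) < 2 ^ (W / 100) := by positivity
      nlinarith
    have a2 : 2 ≤ 2 ^ (W / 100) := by exact_mod_cast a1
    exact ⟨2 ^ (W / 100) - 2, by omega⟩
  have hP3 : (2 : ℝ) ^ (W / 100) = P + 2 := by exact_mod_cast hP2
  rw [hP3] at hP
  have hP0 : (0 : ℝ) ≤ P := Nat.cast_nonneg _
  have hPK : 100 * (K : ℝ) ≤ δ * P := by nlinarith
  have hhiP : hi < P := by exact_mod_cast (by nlinarith : (hi : ℝ) < P)
  have hPp : 0 < P := by omega
  have hPp' : (0 : ℝ) < P := by exact_mod_cast hPp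
  obtain ⟨c, hc⟩ := hcode E W P hE hW hP2.ge
  set S : ℝ := K * L + L + L * P + hi + L ^ 2 + 1 with hS
  have hS0 : 0 < S := by positivity
  obtain ⟨h, hh, hε⟩ := exists_height hθ (ε := δ / (100 * S)) (by positivity)
  set ε := mu.real (Def (θ : Cir) h) with hεd
  have hε0 : 0 ≤ ε := measureReal_nonneg
  have hSε : S * ε ≤ δ / 100 := by
    refine (mul_le_mul_of_nonneg_left hε hS0.le).trans_eq ?_
    field_simp
  have e1 : 0 ≤ (K * L : ℝ) * ε := by positivity
  have e2 : 0 ≤ (L : ℝ) * ε := by positivity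
  have e3 : 0 ≤ (L * P : ℝ) * ε := by positivity
  have e4 : 0 ≤ (hi : ℝ) * ε := by positivity
  have e5 : 0 ≤ (L : ℝ) ^ 2 * ε := by positivity
  have e6 : (K * L : ℝ) * ε + L * ε + (L * P) * ε + hi * ε + (L : ℝ) ^ 2 * ε + ε ≤ δ / 100 :=
    le_trans (le_of_eq (by rw [hS]; ring)) hSε
  obtain ⟨b, H⟩ := exists_HB (θ : Cir) (r := r) hL hLN hh fun x => by
    simpa only [mv_neg_nat] using hit x
  set t : Cir := (θ : Cir) with ht
  set G : ℝ := A + (Kc + 1) * (K * L : ℕ) + 1 with hG
  have hG1 : 0 ≤ (Kc + 1) * ((K * L : ℕ) : ℝ) := by positivity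
  have hG0 : 0 ≤ G := by linarith
  have hD : mu.real (DD t h b) ≤ 4 / L := by
    have a1 := H.real_DD_le hL
    have a2 : (L : ℝ) * ε ≤ 2 / L := by
      rw [le_div_iff₀ hLp]; nlinarith
    have a3 : (4 : ℝ) / L = 2 / L + 2 / L := by ring
    linarith
  have hGc : mu.real (Gc t h L N P K) ≤ 3 * δ / 100 := by
    have a1 := real_Gc_le t hh (K := K) N hL hPp
    have a2 : (N : ℝ) / L ≤ δ / 100 := by rw [div_le_iff₀ hLp]; linarith
    have a3 : (K : ℝ) / P ≤ δ / 100 := by rw [div_le_iff₀ hPp']; linarith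
    have a4 : (K * L + L + L * P : ℝ) * ε = (K * L : ℝ) * ε + L * ε + (L * P) * ε := by ring
    linarith
  have hδK : 1 ≤ δ * K := by rw [hKd]; push_cast; nlinarith
  have hE0 : (0 : ℝ) < E := by linarith
  have hKW : (1 / E : ℝ) * K = W := by rw [hKd]; push_cast; field_simp
  have mG := measurable_Gc t hh L N P K
  refine ⟨aa t h b c P G, 3 * G, VV b c P, DD t h b, ⟨H.m_aa c P G, fun x => ?_⟩,
    fun x => (H.aa_bounds hG0 x).1, fun x hx => (H.aa_supp hx).1, ?_, fun f Y _ hY hYm hf => ?_⟩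
  · rw [abs_of_nonneg (H.aa_bounds hG0 x).1]; exact (H.aa_bounds hG0 x).2
  · refine le_trans (measureReal_mono (fun x hx => (H.aa_supp hx).2 :
      {x | aa t h b c P G x ≠ 0} ⊆ (fun x => x + t) ⁻¹' DD t h b) (measure_ne_top _ _)) ?_
    exact (real_shift H.mD t).trans_le hD
  have hY0 : 0 ≤ mu.real Y := measureReal_nonneg
  have hKp : (0 : ℝ) < K := by linarith
  have hY1 : (K : ℝ) * L ^ 2 * mu.real Y ≤ δ / 8 := by
    refine (mul_le_mul_of_nonneg_left hYm (by positivity)).trans_eq ?_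
    field_simp
  refine ⟨⟨H.mD, fun x => ?_, ?_, Y ∪ Def t h, hY.union (measurable_Def t hh), ?_,
    fun x hx h1 => ?_, fun x hx h1 => ?_⟩, H.mV c P, fun x hx => ?_, ?_, ?_⟩
  · simpa only [mv_neg_nat] using H.hit hL x
  · refine hD.trans_eq ?_
    push_cast; field_simp; norm_num
  · refine (measureReal_union_le _ _).trans ?_
    rw [le_div_iff₀ (by positivity)]
    push_cast
    have b1 : (L : ℝ) ^ 2 * mu.real Y * 64 ≤ (L : ℝ) ^ 2 * mu.real Y * K :=
      mul_le_mul_of_nonneg_left hK64 (by positivity)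
    have b2 : (mu.real Y + ε) * (2 * (L : ℝ)) ^ 2 =
        4 * ((L : ℝ) ^ 2 * mu.real Y) + 4 * ((L : ℝ) ^ 2 * ε) := by ring
    have b3 : (L : ℝ) ^ 2 * mu.real Y * K = K * L ^ 2 * mu.real Y := by ring
    rw [b2]
    linarith
  · rw [Set.mem_union, not_or] at hx
    rw [mv_one, mem_DD_add] at h1
    have a1 : h (x + t) = h x + 1 := not_not.1 hx.2
    have a2 := (H.aa_jump (c := c) (P := P) hG0 a1 (h1.resolve_right (not_not.2 a1))).1
    exact (hf x hx.1).2.trans (Real.exp_le_exp.2 (by linarith))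
  · rw [Set.mem_union, not_or] at hx
    rw [mv_one, mem_DD_add, not_or, not_not] at h1
    have := (hf x hx.1).1
    rwa [HB.aa_same h1.1, neg_zero, zero_sub] at this
  · rw [mv_one, mem_DD_add, not_or, not_not] at hx
    rw [mv_one]
    have e : b (x + t) = b x := hx.1
    show c (b x % P) = true ↔ c (b (x + t) % P) = true
    rw [e]
  · refine ⟨K, fun k => k * L, Gc t h L N P K, by exact_mod_cast hKp,
      fun k => Nat.mul_le_mul_right L k.2.le, mG, by linarith, fun x hx => ?_⟩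
    have a1 := abs_le.1 (hc.cnt (b x % P))
    have a2 : ∀ k : Fin K, mv θ x ((k * L : ℕ) : ℤ) ∈ VV b c P ↔ c (b x % P + k) = true :=
      fun k => by rw [mv_nat]; exact H.mem_VV hL c hx k.2.le
    rw [hKW, abs_le]
    constructor
    · refine le_trans ?_ (sub_le_sub_right (card_fin_ge K (fun k => c (b x % P + k) = true)
        fun k hk => (a2 k).2 hk) _)
      linarith [a1.1]
    · refine le_trans (sub_le_sub_right (card_fin_le K (fun k => c (b x % P + k) = true)
        fun k hk => (a2 k).1 hk) _) ?_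
      linarith [a1.2]
  · refine ⟨VV b c P ∪ Gc t h L N P K ∪ Bad t h hi,
      ((H.mV c P).union mG).union (measurable_Bad t hh hi), ?_,
      H.tests hL hc (by omega) (by omega) hhiP hδK hK (by linarith) hY hf hG0 (by linarith) ?_ _
        subset_rfl⟩
    · have a1 := measureReal_union_le (μ := mu) (VV b c P ∪ Gc t h L N P K) (Bad t h hi)
      have a2 := measureReal_union_le (μ := mu) (VV b c P) (Gc t h L N P K)
      have a3 := real_Bad_le t hh hi
      have a4 := real_le_of_count (H.mV c P) mG (fun k => (k * L) • t) K (W + 1) (by positivity)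
        fun x hx => by
          rw [sum_ind_eq_card (fun k => x + (k * L) • t) K (fun k => c (b x % P + k) = true)
            fun k hk => H.mem_VV hL c hx hk.le]
          linarith [(abs_le.1 (hc.cnt (b x % P))).2]
      have a5 : mu.real (VV b c P) ≤ 2 * (1 / E) + mu.real (Gc t h L N P K) := by
        refine le_of_mul_le_mul_left (a4.trans ?_) hKp
        have b1 : (K : ℝ) * (2 * (1 / E) + mu.real (Gc t h L N P K)) =
            2 * ((1 / E : ℝ) * K) + K * mu.real (Gc t h L N P K) := by ring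
        rw [b1, hKW]
        linarith
      have a6 : 4 * δ ≤ 1 / E := by rw [le_div_iff₀ hE0]; exact hδE
      linarith
    · rw [← hKd, Nat.cast_mul K L]
      have : (K : ℝ) * L * mu.real Y * 1 ≤ K * L * mu.real Y * L :=
        mul_le_mul_of_nonneg_left hL1 (by positivity)
      have b3 : (K : ℝ) * L * mu.real Y * L = K * L ^ 2 * mu.real Y := by ring
      linarith

end Crest.Agent.H7.RI
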