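import Crest.Agent.H9.RI.Defs
import Crest.Agent.H7.RI.Meas
import Crest.Agent.H8.RI.Smooth

set_option autoImplicit false

namespace Crest.Agent.H7.RI

open Finset MeasureTheory Crest.Agent.H9.RI Crest.Agent.H2.RP

theorem mv_nat (θ : ℝ) (x : Cir) (i : ℕ) : mv θ x i = x + i • (θ : Cir) := by
  unfold mv
  rw [Int.cast_natCast, ← nsmul_eq_mul, AddCircle.coe_nsmul]

theorem mv_neg_nat (θ : ℝ) (x : Cir) (i : ℕ) : mv θ x (-(i : ℤ)) = x - i • (θ : Cir) := by
  unfold mv
  rw [Int.cast_neg, Int.cast_natCast, neg_mul, ← nsmul_eq_mul, AddCircle.coe_neg,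
    AddCircle.coe_nsmul, sub_eq_add_neg]

theorem mv_one (θ : ℝ) (x : Cir) : mv θ x 1 = x + (θ : Cir) := by
  simpa using mv_nat θ x 1

theorem mv_mv (θ : ℝ) (x : Cir) (a b : ℤ) : mv θ (mv θ x a) b = mv θ x (a + b) := by
  unfold mv
  rw [add_assoc, ← AddCircle.coe_add]; push_cast; rw [add_mul]

theorem real_ball_le {ρ : ℝ} (hρ : 0 ≤ ρ) : mu.real (Metric.ball (0 : Cir) ρ) ≤ 2 * ρ := by
  refine (measureReal_mono Metric.ball_subset_closedBall (measure_ne_top _ _)).trans ?_
  rw [Measure.real, Crest.Agent.H8.RI.mu_eq_volume, AddCircle.volume_closedBall,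
    ENNReal.toReal_ofReal (le_min zero_le_one (by positivity))]
  exact min_le_right _ _

theorem exists_height {θ : ℝ} (hθ : Irrational θ) {ε : ℝ} (hε : 0 < ε) :
    ∃ h : Cir → ℕ, Measurable h ∧ mu.real (Def (θ : Cir) h) ≤ ε := by
  classical
  have hd : DenseRange fun n : ℕ => n • (θ : Cir) :=
    denseRange_zsmul_iff_nsmul.1 (AddCircle.denseRange_zsmul_coe_iff.2 (by simpa using hθ))
  have hex : ∀ x : Cir, ∃ i : ℕ, x - i • (θ : Cir) ∈ Metric.ball (0 : Cir) (ε / 2) := fun x => by
    obtain ⟨n, hn⟩ := hd.exists_dist_lt x (half_pos hε)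
    exact ⟨n, by rwa [mem_ball_zero_iff, ← dist_eq_norm]⟩
  refine ⟨fun x => Nat.find (hex x), measurable_find hex fun k =>
    (measurable_sub_const _) Metric.isOpen_ball.measurableSet, ?_⟩
  have hsub : Def (θ : Cir) (fun x => Nat.find (hex x)) ⊆
      (fun x => x + (θ : Cir)) ⁻¹' Metric.ball (0 : Cir) (ε / 2) := by
    intro x hx
    by_contra hc
    refine hx ?_
    have e : ∀ i : ℕ, x + (θ : Cir) - (i + 1) • (θ : Cir) = x - i • (θ : Cir) := fun i => by
      rw [succ_nsmul]; abel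
    rw [Nat.find_eq_iff]
    refine ⟨by rw [e]; exact Nat.find_spec (hex x), fun n hn => ?_⟩
    rcases n with _ | n
    · rw [zero_nsmul, sub_zero]; exact hc
    · rw [e]; exact Nat.find_min (hex x) (Nat.lt_of_succ_lt_succ hn)
  refine (measureReal_mono hsub (measure_ne_top _ _)).trans ?_
  rw [real_shift Metric.isOpen_ball.measurableSet]
  exact (real_ball_le (half_pos hε).le).trans_eq (by ring)

theorem exists_last (t : Cir) {r : ℝ} {N : ℕ}
    (hit : ∀ x : Cir, ∃ i : ℕ, 1 ≤ i ∧ i ≤ N ∧ ‖x - i • t‖ < r) :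
    ∃ ι : Cir → ℕ, Measurable ι ∧ (∀ x, 1 ≤ ι x ∧ ι x ≤ N) ∧ (∀ x, ι (x + t) ≤ ι x + 1) ∧
      ∀ x, ¬ ‖x‖ < r → ι (x + t) = ι x + 1 := by
  classical
  have hex : ∀ x : Cir, ∃ i : ℕ, 1 ≤ i ∧ ‖x - i • t‖ < r := fun x =>
    let ⟨i, h1, _, h3⟩ := hit x; ⟨i, h1, h3⟩
  have e : ∀ (x : Cir) (i : ℕ), x + t - (i + 1) • t = x - i • t := fun x i => by
    rw [succ_nsmul]; abel
  refine ⟨fun x => Nat.find (hex x), measurable_find hex fun k => ?_, fun x => ⟨?_, ?_⟩,
    fun x => ?_, fun x hx => ?_⟩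
  · exact (MeasurableSet.const _).inter
      (measurableSet_lt (measurable_sub_const _).norm measurable_const)
  · exact (Nat.find_spec (hex x)).1
  · obtain ⟨i, h1, h2, h3⟩ := hit x
    exact (Nat.find_min' (hex x) ⟨h1, h3⟩).trans h2
  · exact Nat.find_min' (hex _) ⟨by omega, by rw [e]; exact (Nat.find_spec (hex x)).2⟩
  · rw [Nat.find_eq_iff]
    refine ⟨⟨by omega, by rw [e]; exact (Nat.find_spec (hex x)).2⟩, fun n hn hc => ?_⟩
    rcases n with _ | n
    · exact absurd hc.1 (by omega)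
    · rw [e] at hc
      rcases n with _ | n
      · exact hx (by simpa using hc.2)
      · exact Nat.find_min (hex x) (m := n + 1) (Nat.lt_of_succ_lt_succ hn) ⟨by omega, hc.2⟩

/-- height `h`, block index `b` -/
structure HB (t : Cir) (r : ℝ) (L N : ℕ) (h b : Cir → ℕ) : Prop where
  mh : Measurable h
  mb : Measurable b
  le : ∀ x, b x ≤ h x / L
  ge : ∀ x, h x / L ≤ b x + 1
  eq : ∀ x, N ≤ h x % L → b x = h x / L
  mono : ∀ x, h (x + t) = h x + 1 → b x ≤ b (x + t)
  succ : ∀ x, h (x + t) = h x + 1 → b (x + t) ≤ b x + 1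
  same : ∀ x, h (x + t) = h x + 1 → ¬ ‖x‖ < r → b (x + t) = b x

theorem exists_HB (t : Cir) {r : ℝ} {L N : ℕ} (hL : 0 < L) (hN : N ≤ L) {h : Cir → ℕ}
    (hh : Measurable h) (hit : ∀ x : Cir, ∃ i : ℕ, 1 ≤ i ∧ i ≤ N ∧ ‖x - i • t‖ < r) :
    ∃ b, HB t r L N h b := by
  obtain ⟨ι, m, h1, h2, h3⟩ := exists_last t hit
  have hge : ∀ x, h x / L ≤ (h x - ι x) / L + 1 := fun x => by
    rw [← Nat.add_div_right _ hL]
    exact Nat.div_le_div_right (by have := h1 x; omega)
  refine ⟨fun x => (h x - ι x) / L, hh, ?_, fun x => Nat.div_le_div_right (Nat.sub_le _ _), hge,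
    fun x hx => ?_, fun x hx => ?_, fun x hx => ?_, fun x hx hr => ?_⟩
  · exact (measurable_of_countable (fun p : ℕ × ℕ => (p.1 - p.2) / L)).comp (hh.prodMk m)
  · have a1 := Nat.div_add_mod (h x) L
    have a2 := Nat.mod_lt (h x) hL
    have a3 := h1 x
    rw [show h x - ι x = (h x % L - ι x) + L * (h x / L) by omega, Nat.add_mul_div_left _ _ hL,
      Nat.div_eq_of_lt (by omega), zero_add]
  · exact Nat.div_le_div_right (by have := h2 x; omega)
  · exact (Nat.div_le_div_right (by have := h1 (x + t); omega)).trans (hge x)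
  · simp only [hx, h3 x hr, Nat.add_sub_add_right]

theorem not_Bad_step {t : Cir} {h : Cir → ℕ} {n : ℕ} {x : Cir} (hx : x ∉ Bad t h n) {i : ℕ}
    (hi : i < n) : h (x + i • t + t) = h (x + i • t) + 1 := by
  simp only [Bad, Set.mem_ofPred_eq, not_not] at hx
  rw [add_assoc, ← succ_nsmul, hx _ hi, hx _ hi.le, add_assoc]

theorem not_Bad_eq {t : Cir} {h : Cir → ℕ} {n : ℕ} {x : Cir} (hx : x ∉ Bad t h n) {i : ℕ}
    (hi : i ≤ n) : h (x + i • t) = h x + i := by
  simp only [Bad, Set.mem_ofPred_eq, not_not] at hx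
  exact hx i hi

/-- block starts -/
def DD (t : Cir) (h b : Cir → ℕ) : Set Cir := {x | b x ≠ b (x - t) ∨ h x ≠ h (x - t) + 1}

theorem mem_DD_add {t : Cir} {h b : Cir → ℕ} {x : Cir} :
    x + t ∈ DD t h b ↔ b (x + t) ≠ b x ∨ h (x + t) ≠ h x + 1 := by
  simp only [DD, Set.mem_ofPred_eq, add_sub_cancel_right]

namespace HB

variable {t : Cir} {r : ℝ} {L N : ℕ} {h b : Cir → ℕ}

theorem mD (H : HB t r L N h b) : MeasurableSet (DD t h b) :=
  (measurableSet_eq_fun H.mb (H.mb.comp (measurable_sub_const t))).compl.union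
    (measurableSet_eq_fun H.mh ((H.mh.comp (measurable_sub_const t)).add_const 1)).compl

theorem range_le (H : HB t r L N h b) {n : ℕ} {x : Cir} (hx : x ∉ Bad t h n) {i j : ℕ}
    (hij : i ≤ j) (hj : j ≤ n) :
    b (x + i • t) ≤ b (x + j • t) ∧ b (x + j • t) + i ≤ b (x + i • t) + j := by
  induction j, hij using Nat.le_induction with
  | base => exact ⟨le_rfl, le_rfl⟩
  | succ j hij ih =>
    have a1 := ih (by omega)
    have a2 := not_Bad_step hx (by omega : j < n)
    have a3 := H.mono _ a2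
    have a4 := H.succ _ a2
    rw [succ_nsmul, ← add_assoc]
    omega

theorem sep (H : HB t r L N h b) {n : ℕ} {x : Cir} (hx : x ∉ Bad t h n) {i m : ℕ} (hi : 0 < i)
    (him : i ≤ m) (hm : m ≤ n) (hD : x + i • t ∈ DD t h b) :
    b x < b (x + m • t) ∧ b (x + m • t) ≤ b x + m := by
  obtain ⟨i, rfl⟩ : ∃ j, i = j + 1 := ⟨i - 1, by omega⟩
  have a1 := H.range_le hx (Nat.zero_le i) (by omega)
  have a2 := H.range_le hx him hm
  have a3 := H.range_le hx (Nat.zero_le m) hm
  have a4 := not_Bad_step hx (by omega : i < n)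
  have a5 := H.mono _ a4
  rw [succ_nsmul, ← add_assoc] at hD a2
  rw [mem_DD_add] at hD
  simp only [zero_nsmul, add_zero] at a1 a3
  omega

theorem hit (H : HB t r L N h b) (hL : 0 < L) (x : Cir) :
    ∃ i : ℕ, i < 2 * L ∧ x - i • t ∈ DD t h b := by
  by_contra hc
  push Not at hc
  have key : ∀ i ≤ 2 * L, b x = b (x - i • t) ∧ h x = h (x - i • t) + i := by
    intro i hi
    induction i with
    | zero => simp
    | succ i ih =>
      have a1 := ih (by omega)
      have a2 := hc i (by omega)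
      simp only [DD, Set.mem_ofPred_eq, not_or, not_not] at a2
      rw [succ_nsmul, ← sub_sub]
      omega
  have a1 := key _ le_rfl
  have a2 := H.le (x - (2 * L) • t)
  have a3 := H.ge x
  rw [a1.2, Nat.add_mul_div_right _ _ hL] at a3
  omega

theorem real_DD_le (H : HB t r L N h b) (hL : 0 < L) :
    mu.real (DD t h b) ≤ 2 / L + L * mu.real (Def t h) := by
  classical
  have h1 := real_le_of_count H.mD (measurable_Bad t H.mh L) (fun i => i • t + t) L 2
    (by norm_num) fun x hx => by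
      have key : ∀ n ≤ L, ∑ k ∈ range n, (DD t h b).indicator (fun _ => (1 : ℝ)) (x + (k • t + t))
          ≤ (b (x + n • t) : ℝ) - b x := by
        intro n hn
        induction n with
        | zero => simp
        | succ n ih =>
          have a1 := ih (by omega)
          have a2 := not_Bad_step hx (by omega : n < L)
          have a3 := H.mono _ a2
          rw [sum_range_succ, succ_nsmul, ← add_assoc]
          by_cases hD : x + n • t + t ∈ DD t h b
          · rw [Set.indicator_of_mem hD]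
            rw [mem_DD_add] at hD
            have : b (x + n • t) + 1 ≤ b (x + n • t + t) := by omega
            have : (b (x + n • t) : ℝ) + 1 ≤ b (x + n • t + t) := by exact_mod_cast this
            linarith
          · rw [Set.indicator_of_notMem hD]
            have : (b (x + n • t) : ℝ) ≤ b (x + n • t + t) := by exact_mod_cast a3
            linarith
      refine (key L le_rfl).trans ?_
      have a1 := H.le (x + L • t)
      have a2 := H.ge x
      rw [not_Bad_eq hx le_rfl, Nat.add_div_right _ hL] at a1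
      have : b (x + L • t) ≤ b x + 2 := by omega
      have : (b (x + L • t) : ℝ) ≤ b x + 2 := by exact_mod_cast this
      linarith
  have hL' : (0 : ℝ) < L := by exact_mod_cast hL
  have h2 := real_Bad_le t H.mh L
  have h3 : (L : ℝ) * (2 / L) = 2 := by field_simp
  refine le_of_mul_le_mul_left ?_ hL'
  nlinarith

end HB

/-- points where the window structure fails -/
def Gc (t : Cir) (h : Cir → ℕ) (L N P K : ℕ) : Set Cir :=
  Bad t h (K * L) ∪ {x | h x % L < N} ∪ {x | P ≤ h x / L % P + K}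

theorem measurable_Gc (t : Cir) {h : Cir → ℕ} (hh : Measurable h) (L N P K : ℕ) :
    MeasurableSet (Gc t h L N P K) :=
  ((measurable_Bad t hh _).union (measurable_mod hh fun n => n % L < N)).union
    (measurable_mod hh fun n => P ≤ n / L % P + K)

theorem real_Gc_le (t : Cir) {h : Cir → ℕ} (hh : Measurable h) {L P K : ℕ} (N : ℕ) (hL : 0 < L)
    (hP : 0 < P) : mu.real (Gc t h L N P K) ≤
      N / L + K / P + (K * L + L + L * P) * mu.real (Def t h) := by
  have a1 := real_Bad_le t hh (K * L)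
  have a2 := real_mod_lt_le t hh hL N
  have a3 := real_mod_lt_le t (hh.add_const (K * L)) (Nat.mul_pos hL hP) (K * L)
  have a4 : Def t (fun x => h x + K * L) = Def t h := by
    ext x; simp only [Def, Set.mem_ofPred_eq]; omega
  have a5 : {x | P ≤ h x / L % P + K} ⊆ {x | (h x + K * L) % (L * P) < K * L} := by
    intro x hx
    simp only [Set.mem_ofPred_eq] at hx ⊢
    rw [← Nat.div_lt_iff_lt_mul hL, Nat.mod_mul_right_div_self, Nat.add_mul_div_right _ _ hL]
    have b1 := Nat.mod_lt (h x / L) hP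
    have b2 := Nat.div_add_mod (h x / L) P
    have b3 : P * (h x / L / P + 1) = P * (h x / L / P) + P := by ring
    rw [show h x / L + K = (h x / L % P + K - P) + P * (h x / L / P + 1) by omega,
      Nat.add_mul_mod_self_left]
    exact (Nat.mod_le _ _).trans_lt (by omega)
  rw [a4] at a3
  have a6 := measureReal_mono (μ := mu) a5 (measure_ne_top _ _)
  have a7 := measureReal_union_le (μ := mu) (Bad t h (K * L) ∪ {x | h x % L < N})
    {x | P ≤ h x / L % P + K}
  have a8 := measureReal_union_le (μ := mu) (Bad t h (K * L)) {x | h x % L < N}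
  have hL' : (0 : ℝ) < L := by exact_mod_cast hL
  have hP' : (0 : ℝ) < P := by exact_mod_cast hP
  have a9 : ((K * L : ℕ) : ℝ) / ((L * P : ℕ) : ℝ) = K / P := by push_cast; field_simp
  rw [a9] at a3
  push_cast at a1 a3
  unfold Gc
  linarith

theorem HB.window {t : Cir} {r : ℝ} {L N : ℕ} {h b : Cir → ℕ} (H : HB t r L N h b) (hL : 0 < L)
    {P K : ℕ} {x : Cir} (hx : x ∉ Gc t h L N P K) {k : ℕ} (hk : k ≤ K) :
    b (x + (k * L) • t) = b x + k ∧ b (x + (k * L) • t) % P = b x % P + k := by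
  simp only [Gc, Set.mem_union, not_or, Set.mem_ofPred_eq, not_lt, not_le] at hx
  obtain ⟨⟨h1, h2⟩, h3⟩ := hx
  have a1 := not_Bad_eq h1 (Nat.mul_le_mul_right L hk)
  have a2 := H.eq x h2
  have a3 := H.eq (x + (k * L) • t) (by rw [a1, Nat.add_mul_mod_self_right]; exact h2)
  rw [a1, Nat.add_mul_div_right _ _ hL, ← a2] at a3
  rw [← a2] at h3
  refine ⟨a3, ?_⟩
  rw [a3, ← Nat.mod_add_mod, Nat.mod_eq_of_lt (by omega)]

end Crest.Agent.H7.RI
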