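import Crest.Agent.H7.RI.Step1

set_option autoImplicit false

namespace Crest.Agent.H7.RI

open Finset MeasureTheory Crest.Agent.H9.RI Crest.Agent.H2.RP
open scoped Classical

theorem card_fin (K : ℕ) (Q : Fin K → Prop) (Q' : ℕ → Prop) [DecidablePred Q] [DecidablePred Q']
    (h : ∀ k : Fin K, Q k ↔ Q' k) : #(univ.filter Q) = #{k ∈ range K | Q' k} := by
  refine card_bij (fun k _ => (k : ℕ)) ?_ ?_ ?_
  · intro k hk
    simp only [mem_filter, mem_univ, true_and] at hk
    exact mem_filter.2 ⟨mem_range.2 k.2, (h k).1 hk⟩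
  · intro a _ b _ hab; exact Fin.ext hab
  · intro k hk
    rw [mem_filter, mem_range] at hk
    exact ⟨⟨k, hk.1⟩, by simp only [mem_filter, mem_univ, true_and]; exact (h _).2 hk.2, rfl⟩

theorem card_fin_le (K : ℕ) {Q : Fin K → Prop} {i1 : DecidablePred Q} (Q' : ℕ → Prop)
    [DecidablePred Q'] (h : ∀ k : Fin K, Q k → Q' k) :
    (#(@filter _ Q i1 univ) : ℝ) ≤ #{k ∈ range K | Q' k} := by
  rw [← card_fin K (fun k : Fin K => Q' k) Q' fun _ => Iff.rfl, Nat.cast_le]
  exact card_le_card (monotone_filter_right _ fun k _ hk => h k hk)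

theorem card_fin_ge (K : ℕ) {Q : Fin K → Prop} {i1 : DecidablePred Q} (Q' : ℕ → Prop)
    [DecidablePred Q'] (h : ∀ k : Fin K, Q' k → Q k) :
    (#{k ∈ range K | Q' k} : ℝ) ≤ #(@filter _ Q i1 univ) := by
  rw [← card_fin K (fun k : Fin K => Q' k) Q' fun _ => Iff.rfl, Nat.cast_le]
  exact card_le_card (monotone_filter_right _ fun k _ hk => h k hk)

theorem bit_nonneg (c : Bool) : 0 ≤ bit c := by unfold bit; split_ifs <;> norm_num
theorem bit_le (c : Bool) : bit c ≤ 1 := by unfold bit; split_ifs <;> norm_num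

/-- potential -/
def ph (b : Cir → ℕ) (c : ℕ → Bool) (P : ℕ) (x : Cir) : ℝ := 2 * (b x : ℝ) + bit (c (b x % P))

/-- the step cost -/
noncomputable def aa (t : Cir) (h b : Cir → ℕ) (c : ℕ → Bool) (P : ℕ) (G : ℝ) (x : Cir) : ℝ :=
  if h (x + t) = h x + 1 then G * (ph b c P (x + t) - ph b c P x) else 0

/-- marked set -/
def VV (b : Cir → ℕ) (c : ℕ → Bool) (P : ℕ) : Set Cir := {x | c (b x % P) = true}

namespace HB

variable {t : Cir} {r : ℝ} {L N : ℕ} {h b : Cir → ℕ}

theorem mV (H : HB t r L N h b) (c : ℕ → Bool) (P : ℕ) : MeasurableSet (VV b c P) :=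
  measurable_mod H.mb fun n => c (n % P) = true

theorem m_aa (H : HB t r L N h b) (c : ℕ → Bool) (P : ℕ) (G : ℝ) :
    Measurable (aa t h b c P G) := by
  have m1 : Measurable (ph b c P) :=
    (measurable_of_countable (fun n : ℕ => 2 * (n : ℝ) + bit (c (n % P)))).comp H.mb
  exact Measurable.ite (measurableSet_eq_fun (H.mh.comp (measurable_add_const t))
    (H.mh.add_const 1)) (((m1.comp (measurable_add_const t)).sub m1).const_mul G) measurable_const

theorem aa_same {c : ℕ → Bool} {P : ℕ} {G : ℝ} {x : Cir} (hx : b (x + t) = b x) :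
    aa t h b c P G x = 0 := by
  unfold aa ph; rw [hx]; simp

theorem aa_jump (H : HB t r L N h b) {c : ℕ → Bool} {P : ℕ} {G : ℝ} (hG : 0 ≤ G) {x : Cir}
    (h1 : h (x + t) = h x + 1) (hx : b (x + t) ≠ b x) :
    G ≤ aa t h b c P G x ∧ aa t h b c P G x ≤ 3 * G := by
  have a1 := H.mono x h1
  have a2 := H.succ x h1
  have a3 : b (x + t) = b x + 1 := by omega
  unfold aa ph
  rw [if_pos h1, a3]
  have := bit_nonneg (c ((b x + 1) % P))
  have := bit_le (c ((b x + 1) % P))
  have := bit_nonneg (c (b x % P))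
  have := bit_le (c (b x % P))
  push_cast
  constructor <;> nlinarith

theorem aa_bounds (H : HB t r L N h b) {c : ℕ → Bool} {P : ℕ} {G : ℝ} (hG : 0 ≤ G) (x : Cir) :
    0 ≤ aa t h b c P G x ∧ aa t h b c P G x ≤ 3 * G := by
  by_cases h1 : h (x + t) = h x + 1
  · by_cases h2 : b (x + t) = b x
    · rw [aa_same h2]; exact ⟨le_rfl, by linarith⟩
    · have := H.aa_jump (c := c) (P := P) hG h1 h2
      exact ⟨by linarith [this.1], this.2⟩
  · unfold aa; rw [if_neg h1]; exact ⟨le_rfl, by linarith⟩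

theorem aa_supp (H : HB t r L N h b) {c : ℕ → Bool} {P : ℕ} {G : ℝ} {x : Cir}
    (hx : aa t h b c P G x ≠ 0) : ‖x‖ < r ∧ x + t ∈ DD t h b := by
  have h1 : h (x + t) = h x + 1 := by
    by_contra hc; exact hx (by unfold aa; rw [if_neg hc])
  have h2 : b (x + t) ≠ b x := fun e => hx (aa_same e)
  exact ⟨by by_contra hc; exact h2 (H.same x h1 hc), mem_DD_add.2 (Or.inl h2)⟩

end HB

theorem sum_aa {t : Cir} {h b : Cir → ℕ} (c : ℕ → Bool) (P : ℕ) (G : ℝ) {n : ℕ} {x : Cir}
    (hx : x ∉ Bad t h n) {m : ℕ} (hm : m ≤ n) :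
    ∑ i ∈ range m, aa t h b c P G (x + i • t) = G * (ph b c P (x + m • t) - ph b c P x) := by
  induction m with
  | zero => simp
  | succ m ih =>
    rw [sum_range_succ, ih (by omega), aa, if_pos (not_Bad_step hx (by omega)), succ_nsmul,
      ← add_assoc]
    ring

theorem fn_bounds {θ : ℝ} {f a : Cir → ℝ} {Kc : ℝ} {Y : Set Cir}
    (hf : ∀ x ∉ Y, Real.exp (-a x - Kc) ≤ f x ∧ f x ≤ Real.exp (-a x + 1)) {n : ℕ} {x : Cir}
    (hx : ∀ i < n, x + i • (θ : Cir) ∉ Y) :
    Real.exp (-(∑ i ∈ range n, a (x + i • (θ : Cir))) - n * Kc) ≤ fn θ f n x ∧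
      fn θ f n x ≤ Real.exp (-(∑ i ∈ range n, a (x + i • (θ : Cir))) + n) := by
  unfold fn
  simp only [mv_nat]
  constructor
  · have : -(∑ i ∈ range n, a (x + i • (θ : Cir))) - n * Kc =
        ∑ i ∈ range n, (-a (x + i • (θ : Cir)) - Kc) := by
      rw [sum_sub_distrib, sum_neg_distrib, sum_const, card_range, nsmul_eq_mul]
    rw [this, Real.exp_sum]
    exact prod_le_prod (fun i _ => (Real.exp_pos _).le) fun i hi => (hf _ (hx i (mem_range.1 hi))).1
  · have : -(∑ i ∈ range n, a (x + i • (θ : Cir))) + n =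
        ∑ i ∈ range n, (-a (x + i • (θ : Cir)) + 1) := by
      rw [sum_add_distrib, sum_neg_distrib, sum_const, card_range, nsmul_eq_mul, mul_one]
    rw [this, Real.exp_sum]
    exact prod_le_prod (fun i hi => (Real.exp_pos _).le.trans (hf _ (hx i (mem_range.1 hi))).1)
      fun i hi => (hf _ (hx i (mem_range.1 hi))).2

theorem HB.mem_VV {t : Cir} {r : ℝ} {L N : ℕ} {h b : Cir → ℕ} (H : HB t r L N h b) (hL : 0 < L)
    {P K : ℕ} (c : ℕ → Bool) {x : Cir} (hx : x ∉ Gc t h L N P K) {k : ℕ} (hk : k ≤ K) :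
    x + (k * L) • t ∈ VV b c P ↔ c (b x % P + k) = true := by
  simp only [VV, Set.mem_ofPred_eq]
  rw [(H.window hL hx hk).2]

/-- the tests of one level -/
theorem HB.tests {θ r : ℝ} {L N : ℕ} {h b : Cir → ℕ} (H : HB (θ : Cir) r L N h b) (hL : 0 < L)
    {E W P hi : ℕ} {c : ℕ → Bool} (hc : Code E W P c) (hE : 0 < E) (hW : 0 < W) (hhi : hi < P)
    {δ A Kc G : ℝ} (hδ : 1 ≤ δ * (E * W : ℕ)) (hK : 0 ≤ Kc)
    (hG : A + (Kc + 1) * (E * W * L : ℕ) ≤ G)
    {f : Cir → ℝ} {Y : Set Cir} (hY : MeasurableSet Y)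
    (hf : ∀ x ∉ Y, Real.exp (-aa (θ : Cir) h b c P G x - Kc) ≤ f x ∧
      f x ≤ Real.exp (-aa (θ : Cir) h b c P G x + 1)) (hG0 : 0 ≤ G)
    (m1 : mu.real (Gc (θ : Cir) h L N P (E * W)) ≤ δ / 2)
    (m2 : (E * W * L : ℕ) * mu.real Y ≤ δ / 2) (Bd : Set Cir)
    (hBd : VV b c P ∪ Gc (θ : Cir) h L N P (E * W) ∪ Bad (θ : Cir) h hi ⊆ Bd) :
    Tests θ f (VV b c P) (1 / E) δ A {z | |z.2| ≤ hi ∧ z ∉ SB θ (DD (θ : Cir) h b) ∧
      z.1 ∉ Bd ∧ mv θ z.1 z.2 ∉ Bd} := by
  set t : Cir := (θ : Cir) with ht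
  set K := E * W with hKd
  have hK0 : 0 < K := Nat.mul_pos hE hW
  have hE' : (0 : ℝ) < E := by exact_mod_cast hE
  have hKW : (1 / E : ℝ) * K = W := by rw [hKd]; push_cast; field_simp
  have mG := measurable_Gc t H.mh L N P K
  have cnt : ∀ i, (#{k ∈ range K | c (i + k) = true} : ℝ) ≤ W + 1 := fun i => by
    have := (abs_le.1 (hc.cnt i)).2; linarith
  have hsum : ∀ x ∉ Gc t h L N P K, ∀ k : Fin K,
      ∑ i ∈ range (k * L), aa t h b c P G (x + i • t) =
        G * (2 * (k : ℕ) + bit (c (b (x + (k * L) • t) % P)) - bit (c (b x % P))) := by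
    intro x hx k
    rw [sum_aa c P G (fun hb => hx (Or.inl (Or.inl hb))) (Nat.mul_le_mul_right L k.2.le), ph, ph,
      (H.window hL hx k.2.le).1]
    push_cast; ring
  have hfn : ∀ k : Fin K, ∀ x ∉ Gc t h L N P K ∪ ⋃ i ∈ range (K * L), (fun x => x + i • t) ⁻¹' Y,
      Real.exp (-(G * (2 * (k : ℕ) + bit (c (b (x + (k * L) • t) % P)) - bit (c (b x % P)))) -
        (k * L : ℕ) * Kc) ≤ fn θ f (k * L) x ∧ fn θ f (k * L) x ≤
      Real.exp (-(G * (2 * (k : ℕ) + bit (c (b (x + (k * L) • t) % P)) - bit (c (b x % P)))) +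
        (k * L : ℕ)) := by
    intro k x hx
    rw [Set.mem_union, not_or] at hx
    rw [← hsum x hx.1 k]
    refine fn_bounds hf fun i hi hm => hx.2 ?_
    simp only [Set.mem_iUnion, Set.mem_preimage, mem_range]
    exact ⟨i, hi.trans_le (Nat.mul_le_mul_right L k.2.le), hm⟩
  refine ⟨K, fun k => k * L, fun k => {x | x + (k * L) • t ∈ VV b c P ∧ x ∉ VV b c P},
    fun _ => Gc t h L N P K ∪ ⋃ i ∈ range (K * L), (fun x => x + i • t) ⁻¹' Y,
    fun k => Real.exp (-(G * (2 * (k : ℕ) + 1)) - (k * L : ℕ) * Kc),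
    fun k => Real.exp (-(G * (2 * (k : ℕ))) - (k * L : ℕ) * Kc),
    Gc t h L N P K ∪ (fun x => x + -((K * L) • t)) ⁻¹' Gc t h L N P K, hK0,
    fun k => ((measurable_add_const _) (H.mV c P)).inter (H.mV c P).compl,
    fun _ => mG.union (MeasurableSet.biUnion (Finset.countable_toSet _) fun i _ =>
      (measurable_add_const _) hY),
    mG.union ((measurable_add_const _) mG), fun _ => ?_, ?_, fun _ => Real.exp_pos _,
    fun _ => Real.exp_pos _, fun k x hx => ?_, fun k x hx hS => ?_, fun k x hx hS => ?_,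
    fun x hx => ?_, fun x hx hV => ?_, fun z hz => ?_⟩
  · have := measureReal_union_le (μ := mu) (Gc t h L N P K)
      (⋃ i ∈ range (K * L), (fun x => x + i • t) ⁻¹' Y)
    have := real_hit_le hY t (K * L)
    linarith
  · have := measureReal_union_le (μ := mu) (Gc t h L N P K)
      ((fun x => x + -((K * L) • t)) ⁻¹' Gc t h L N P K)
    rw [real_shift mG] at this
    linarith
  · refine le_trans (Real.exp_le_exp.2 ?_) (hfn k x hx).1
    have := bit_nonneg (c (b x % P))
    have := bit_le (c (b (x + (k * L) • t) % P))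
    nlinarith
  · refine (hfn k x hx).2.trans ?_
    rw [← Real.exp_add, Real.exp_le_exp]
    have e1 : bit (c (b (x + (k * L) • t) % P)) = 1 := by
      have : c (b (x + (k * L) • t) % P) = true := hS.1
      rw [this]; simp [bit]
    have e2 : bit (c (b x % P)) = 0 := by
      have : ¬ c (b x % P) = true := hS.2
      simp [bit, this]
    rw [e1, e2]
    have e3 : ((k * L : ℕ) : ℝ) ≤ (K * L : ℕ) := by
      exact_mod_cast Nat.mul_le_mul_right L k.2.le
    nlinarith
  · refine le_trans (Real.exp_le_exp.2 ?_) (hfn k x hx).1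
    have e1 : bit (c (b (x + (k * L) • t) % P)) ≤ bit (c (b x % P)) := by
      by_cases h1 : c (b x % P) = true
      · rw [h1]; exact (bit_le _).trans_eq (by simp [bit])
      · have h2 : ¬ c (b (x + (k * L) • t) % P) = true := fun h2 => hS ⟨h2, h1⟩
        simp [bit, h1, h2]
    nlinarith
  · rw [Set.mem_union, not_or] at hx
    refine le_trans (card_fin_le K (fun k => c (b x % P + k) = true)
      fun k hk => (H.mem_VV hL c hx.1 k.2.le).1 hk.1) ?_
    have a2 := cnt (b x % P)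
    rw [add_mul, hKW]
    linarith
  · rw [Set.mem_union, not_or] at hx
    set y := x + -((K * L) • t) with hy
    have hy' : y ∉ Gc t h L N P K := hx.2
    have a0 : ∀ k : Fin K, x - (k * L) • t = y + ((K - k) * L) • t := fun k => by
      have : K * L = (K - k) * L + k * L := by rw [← add_mul, Nat.sub_add_cancel k.2.le]
      rw [hy, this, add_nsmul]; abel
    refine le_trans ?_ (card_fin_ge K (fun k => ¬ c (b y % P + (K - k)) = true) fun k hk => ?_)
    swap
    · show mv θ x (-((k * L : ℕ) : ℤ)) + (k * L) • t ∈ VV b c P ∧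
        mv θ x (-((k * L : ℕ) : ℤ)) ∉ VV b c P
      rw [mv_neg_nat, sub_add_cancel, a0, H.mem_VV hL c hy' (Nat.sub_le _ _)]
      exact ⟨hV, hk⟩
    have a2 : #{k ∈ range K | c (b y % P + (K - k)) = true} ≤
        #{k ∈ range K | c (b y % P + 1 + k) = true} := by
      refine card_le_card_of_injOn (fun k => K - 1 - k) ?_ ?_
      · intro k hk
        simp only [coe_filter, mem_range, Set.mem_ofPred_eq] at hk ⊢
        refine ⟨by omega, ?_⟩
        rw [show b y % P + 1 + (K - 1 - k) = b y % P + (K - k) by omega]; exact hk.2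
      · intro k hk k' hk' e
        simp only [coe_filter, mem_range, Set.mem_ofPred_eq] at hk hk' e
        omega
    have a3 := card_filter_add_card_filter_not (s := range K)
      (fun k => c (b y % P + (K - k)) = true)
    rw [card_range] at a3
    have a4 := cnt (b y % P + 1)
    have a5 : (K : ℝ) ≤ #{k ∈ range K | c (b y % P + 1 + k) = true} +
        #{k ∈ range K | ¬ c (b y % P + (K - k)) = true} := by exact_mod_cast (by omega)
    have a6 : (1 : ℝ) ≤ W := by exact_mod_cast hW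
    rw [sub_mul, mul_assoc, hKW]
    linarith
  · obtain ⟨x, d⟩ := z
    obtain ⟨h1, h2, h3, h4⟩ := hz
    simp only at h1 h3 h4 ⊢
    set y := mv θ x d with hy
    have hx1 : x ∉ VV b c P := fun e => h3 (hBd (Or.inl (Or.inl e)))
    have hx2 : x ∉ Gc t h L N P K := fun e => h3 (hBd (Or.inl (Or.inr e)))
    have hx3 : x ∉ Bad t h hi := fun e => h3 (hBd (Or.inr e))
    have hy2 : y ∉ Gc t h L N P K := fun e => h4 (hBd (Or.inl (Or.inr e)))
    have hy3 : y ∉ Bad t h hi := fun e => h4 (hBd (Or.inr e))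
    have hP : 0 < P := by omega
    have hne : b x % P ≠ b y % P := by
      simp only [SB, Set.mem_ofPred_eq, not_forall, not_not] at h2
      obtain ⟨i, hii, hD⟩ := h2
      rw [abs_le] at h1
      have fin : ∀ u v : ℕ, u < v → v ≤ u + hi → u % P ≠ v % P := fun u v huv hv e => by
        have := (Nat.modEq_iff_dvd' huv.le).1 e
        have := Nat.le_of_dvd (by omega) this
        omega
      rcases hii with hii | hii
      · obtain ⟨m, rfl⟩ := Int.eq_ofNat_of_zero_le (by omega : 0 ≤ d)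
        obtain ⟨j, rfl⟩ := Int.eq_ofNat_of_zero_le hii.1.le
        rw [mv_nat] at hD hy
        have := H.sep hx3 (i := j) (m := m) (by omega) (by omega) (by omega) hD
        rw [← hy] at this
        exact fin _ _ this.1 (by omega)
      · obtain ⟨m, hm⟩ := Int.eq_ofNat_of_zero_le (by omega : 0 ≤ -d)
        obtain ⟨j, hj⟩ := Int.eq_ofNat_of_zero_le (by omega : 0 ≤ i - d)
        have e1 : x = y + m • t := by
          rw [← mv_nat, hy, mv_mv, ← hm, add_neg_cancel]
          simpa using (mv_nat θ x 0).symm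
        have e2 : mv θ x i = y + j • t := by
          rw [← mv_nat, hy, mv_mv, ← hj, add_sub_cancel]
        rw [e2] at hD
        have := H.sep hy3 (i := j) (m := m) (by omega) (by omega) (by omega) hD
        rw [← e1] at this
        exact (fin _ _ this.1 (by omega)).symm
    have a1 := hc.sep _ (Nat.mod_lt _ hP).le _ (Nat.mod_lt _ hP).le hne
    refine le_trans ?_ (card_fin_ge K
      (fun k => c (b x % P + k) = true ∧ c (b y % P + k) = false)
      fun k hk => ⟨⟨?_, hx1⟩, fun e => ?_⟩)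
    rotate_left
    · exact (H.mem_VV hL c hx2 k.2.le).2 hk.1
    · have := (H.mem_VV hL c hy2 k.2.le).1 e.1
      rw [hk.2] at this; exact absurd this (by simp)
    have a3 : (W : ℝ) ≤ 10 *
        #{k ∈ range K | c (b x % P + k) = true ∧ c (b y % P + k) = false} := by exact_mod_cast a1
    rw [div_mul_eq_mul_div, hKW]
    linarith

end Crest.Agent.H7.RI
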