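import Crest.Agent.H9.RI.Defs
import Crest.Agent.H7.RI.Code

set_option autoImplicit false

namespace Crest.Agent.H7.RI

open Crest.Agent.H9.RI

theorem t_code : T_code := by
  intro E W P hE hW hP
  have hm : 1 ≤ W / 100 := by
    by_contra h
    have : W / 100 = 0 := by omega
    rw [this] at hP; omega
  have h1 : ((P : ℝ) + 2) ^ 2 * (9 / 10) ^ (W - 2) < 1 := by
    have a1 : (P : ℝ) + 2 ≤ 2 ^ (W / 100) := by exact_mod_cast hP
    have a2 : (9 / 10 : ℝ) ^ (W - 2) ≤ (9 / 10) ^ (20 * (W / 100)) :=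
      pow_le_pow_of_le_one (by norm_num) (by norm_num) (by omega)
    calc ((P : ℝ) + 2) ^ 2 * (9 / 10) ^ (W - 2)
        ≤ (2 ^ (W / 100)) ^ 2 * (9 / 10) ^ (20 * (W / 100)) := by gcongr
      _ = (2 ^ 2 * (9 / 10) ^ 20) ^ (W / 100) := by
        rw [mul_pow, ← pow_mul, ← pow_mul, ← pow_mul, mul_comm (W / 100) 2]
      _ < 1 := pow_lt_one₀ (by positivity) (by norm_num) (by omega)
  obtain ⟨z, h2, h3, h4⟩ := code (r := E) (by omega) (by omega) h1
  refine ⟨z, fun b => ?_, fun b hb b' hb' hne => h4 b b' hb hb' hne⟩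
  have a1 := h2 b
  have a2 := h3 b
  generalize ((Finset.range (E * W)).filter fun k => z (b + k) = true).card = c at a1 a2
  have a3 : (W : ℝ) ≤ c + 1 := by exact_mod_cast (by omega : W ≤ c + 1)
  have a4 : (c : ℝ) ≤ W + 1 := by exact_mod_cast a2
  rw [abs_le]; constructor <;> linarith

end Crest.Agent.H7.RI
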